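import Vale.Agent.P323.H21.JS
import Vale.Agent.P323.P11.BB

/-! P323: the black boxes `JSStmt`, `JSStmt'` of section 11.  helper21. -/

namespace Vale.Agent.P323.P11

open CategoryTheory Vale.Agent.P323.Z NameTheory TwBase

variable (D : Type 1) [Category.{1} D] [Tw D]

theorem jsStmt : JSStmt D := by
  intro n c α j j' hα hα' b b' E E' γ γ' hγ hγ' inv inv' w e e' h f s t hst hs ht
  exact Z.js_stage (n := n) (c := c) (α := α) ⟨b, E, γ, hα, hγ, inv⟩
    ⟨b', E', γ', hα', hγ', inv'⟩ hs ht h hst

theorem jsStmt' : JSStmt' D := by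
  intro j τ w e e' h f s t hst hs ht
  exact Z.js_same τ hs ht h hst

end Vale.Agent.P323.P11
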