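import Vale.Agent.P323.Z.Tower

/-! P323 (note 3482, section 7): joint separation, from the interface `Tw D`.  helper21. -/

namespace Vale.Agent.P323.Z

open CategoryTheory TwBase

section base

variable {D : Type 1} [Category.{1} D] [TwBase D]

theorem tw_cancel {X Y Z : D} {f g : X ⟶ Y} {h : Y ⟶ Z} (e : f ≫ h = g ≫ h) : f = g := by
  have := TwBase.mono h
  exact (cancel_mono h).1 e

theorem tw_cancel_id {X Z : D} {f : X ⟶ X} {h : X ⟶ Z} (e : f ≫ h = h) : f = 𝟙 X :=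
  tw_cancel (h := h) (by simpa using e)

/-- `ι m` is not split. -/
theorem ι_ne {m : ℕ} (f : (a (m + 1) : D) ⟶ a m) : f ≫ ι m ≠ 𝟙 _ := fun h => ι_not m ⟨f, h⟩

/-- `ι m` does not occur in a factorisation of an identity. -/
theorem ι_ne' {m n : ℕ} (f : (a n : D) ⟶ a m) (y : (a (m + 1) : D) ⟶ a n) :
    f ≫ ι m ≫ y ≠ 𝟙 _ := by
  intro h
  apply ι_ne (y ≫ f)
  apply tw_cancel (h := y)
  rw [Category.assoc, Category.assoc, h]
  simp

theorem mem_ι (i : Ordinal.{0}) (n : ℕ) : Mem i (ι n : (a n : D) ⟶ _) := mem_mono zero_le (ι_mem n)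

namespace PG

variable {i : Ordinal.{0}} {b : D} (E : PG D i b)

theorem mem_left {d : D} {s t : d ⟶ b} (h : E.rel s t) : Mem i s := (E.mem h).1

theorem mem_right {d : D} {s t : d ⟶ b} (h : E.rel s t) : Mem i t := (E.mem h).2

theorem trans {d : D} {s t t' : d ⟶ b} (h : E.rel s t) (h' : E.rel t t') : E.rel s t' := by
  have h1 : Mem i (𝟙 d) := mem_src (E.mem_left h)
  have h2 : IsPB (𝟙 d) (𝟙 d) t t :=
    ⟨rfl, fun u v huv => ⟨u, by simp, by simpa using tw_cancel huv⟩⟩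
  simpa using E.comp h h' h2 h1 h1

theorem left {d : D} {s t : d ⟶ b} (h : E.rel s t) : E.rel s s := E.trans h (E.symm h)

theorem right {d : D} {s t : d ⟶ b} (h : E.rel s t) : E.rel t t := E.trans (E.symm h) h

/-- restriction to a smaller domain -/
theorem restrict {d e : D} {s t : d ⟶ b} {g : e ⟶ d} (h : E.rel s t)
    (h' : E.rel (g ≫ s) (g ≫ s)) : E.rel (g ≫ s) (g ≫ t) := by
  have h1 : Mem i (𝟙 e) := mem_src (E.mem_left h')
  have h3 : Mem i g := mem_div (E.mem_left h') (E.mem_left h)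
  have h2 : IsPB (𝟙 e) g (g ≫ s) s := by
    refine ⟨by simp, fun u v huv => ⟨u, by simp, ?_⟩⟩
    apply tw_cancel (h := s)
    rw [Category.assoc, huv]
  simpa using E.comp h' h h2 h1 h3

end PG

end base

variable {D : Type 1} [Category.{1} D] [Tw D]

open Tw

theorem gen_not_thru {i : Ordinal.{0}} (τ : Task D i) : ¬ Thru τ.γ (gen τ) := by
  rintro ⟨z, hz⟩
  obtain ⟨z', hz'⟩ := G6 τ z (by rw [hz]; exact τ.hγ)
  rw [← hz', Category.assoc, gen_α, ← Category.assoc] at hz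
  exact ι_ne z' (tw_cancel_id hz)

/-- one step of the reduction -/
theorem js_step {j k : Ordinal.{0}} (hjk : j ≤ k) (τ : Task D j) {d z : D} {p : d ⟶ τ.b}
    (h1 : Mem (k + 1) p) (h2 : ¬ Mem k p) {g : z ⟶ d} {s : z ⟶ τ.c}
    {h : (a (τ.n + 1) : D) ⟶ d} (hg : g ≫ p = s ≫ gen τ) (hh : h ≫ p = τ.γ)
    (hs : ¬ Thru s τ.α) :
    ∃ (P : D) (π : P ⟶ d), Mem k π ∧ Mem k (π ≫ p) ∧ Thru g π ∧ Thru h π := by
  have hb : Mem k (𝟙 τ.b) := mem_mono hjk (mem_tgt τ.hγ)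
  obtain ⟨N⟩ := nd p hb h1 h2
  have hhp : Thru h N.π := N.N0 h (by rw [hh]; exact mem_mono hjk τ.hγ)
  refine ⟨N.P, N.π, N.hπ, ?_, ?_, hhp⟩
  · rw [N.eq]
    exact mem_comp N.hπ' (mem_comp (mem_ι _ _) N.hA)
  rcases hjk.lt_or_eq with hlt | rfl
  · rcases N.N1 (gen τ) (mem_mono (Order.add_one_le_of_lt hlt) (gen_mem τ)) with h3 | h3
    · exfalso
      apply gen_not_thru τ
      obtain ⟨p', hp'⟩ := h3.2
      exact ⟨h ≫ p', by rw [Category.assoc, hp', hh]⟩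
    · exact h3 g s hg
  · rcases G3 τ p h1 N h hh g s hg with h3 | h3
    · exact h3
    · exact absurd h3 hs

/-- A task over stage `i` of shape `α`. -/
structure TaskOn (i : Ordinal.{0}) {n : ℕ} {c : D} (α : (a n : D) ⟶ c) where
  b : D
  E : PG D i b
  γ : (a (n + 1) : D) ⟶ b
  hα : Mem i α
  hγ : Mem i γ
  inv : ∀ {d : D} {s t : d ⟶ b}, E.rel s t →
    ∃ v : (a (n + 1) : D) ⟶ d, v ≫ s = γ ∧ v ≫ t = γ

variable {n : ℕ} {c : D} {α : (a n : D) ⟶ c}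

/-- the bundled task -/
abbrev TaskOn.task {i : Ordinal.{0}} (τ : TaskOn i α) : Task D i :=
  ⟨n, c, α, τ.b, τ.E, τ.γ, τ.hα, τ.hγ, τ.inv⟩

/-- the reduction of `p, q` to stage `j'` -/
theorem js_reduce {j j' : Ordinal.{0}} (hjj : j ≤ j') (τ : TaskOn j α) (τ' : TaskOn j' α)
    {w z : D} {e : τ.b ⟶ w} {e' : τ'.b ⟶ w} {s t : z ⟶ c} (hs : ¬ Thru s α) (ht : ¬ Thru t α)
    (K : Ordinal.{0}) :
    ∀ {d : D} (p : d ⟶ τ.b) (q : d ⟶ τ'.b) (g : z ⟶ d) (h : (a (n + 1) : D) ⟶ d),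
      Mem K p → Mem K q → p ≫ e = q ≫ e' → g ≫ p = s ≫ gen τ.task → g ≫ q = t ≫ gen τ'.task →
      h ≫ p = τ.γ → h ≫ q = τ'.γ →
    ∃ (d : D) (p : d ⟶ τ.b) (q : d ⟶ τ'.b) (g : z ⟶ d) (h : (a (n + 1) : D) ⟶ d),
      Mem j' p ∧ Mem j' q ∧ p ≫ e = q ≫ e' ∧ g ≫ p = s ≫ gen τ.task ∧
      g ≫ q = t ≫ gen τ'.task ∧ h ≫ p = τ.γ ∧ h ≫ q = τ'.γ := by
  induction K using Ordinal.limitRecOn with
  | zero =>
    intro d p q g h h1 h2 h3 h4 h5 h6 h7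
    exact ⟨d, p, q, g, h, mem_mono zero_le h1, mem_mono zero_le h2, h3, h4, h5,
      h6, h7⟩
  | limit K hK ih =>
    intro d p q g h h1 h2 h3 h4 h5 h6 h7
    obtain ⟨i₁, hi₁, hp⟩ := mem_lim hK h1
    obtain ⟨i₂, hi₂, hq⟩ := mem_lim hK h2
    exact ih (max i₁ i₂) (max_lt hi₁ hi₂) p q g h (mem_mono (le_max_left _ _) hp)
      (mem_mono (le_max_right _ _) hq) h3 h4 h5 h6 h7
  | add_one k ih =>
    intro d p q g h h1 h2 h3 h4 h5 h6 h7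
    by_cases hk : k < j'
    · have h8 : k + 1 ≤ j' := Order.add_one_le_of_lt hk
      exact ⟨d, p, q, g, h, mem_mono h8 h1, mem_mono h8 h2, h3, h4, h5, h6, h7⟩
    · rw [not_lt] at hk
      -- first p
      have key1 : ∃ (d : D) (p : d ⟶ τ.b) (q : d ⟶ τ'.b) (g : z ⟶ d) (h : (a (n + 1) : D) ⟶ d),
          Mem k p ∧ Mem (k + 1) q ∧ p ≫ e = q ≫ e' ∧ g ≫ p = s ≫ gen τ.task ∧
          g ≫ q = t ≫ gen τ'.task ∧ h ≫ p = τ.γ ∧ h ≫ q = τ'.γ := by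
        by_cases hp : Mem k p
        · exact ⟨d, p, q, g, h, hp, h2, h3, h4, h5, h6, h7⟩
        · obtain ⟨P, π, hπ, hπp, ⟨g', hg'⟩, ⟨h', hh'⟩⟩ :=
            js_step (hjj.trans hk) τ.task h1 hp h4 h6 hs
          refine ⟨P, π ≫ p, π ≫ q, g', h', hπp,
            mem_comp (mem_mono (le_of_lt (Order.lt_add_one_iff.2 le_rfl)) hπ) h2, ?_, ?_, ?_,
            ?_, ?_⟩
          · rw [Category.assoc, h3, Category.assoc]
          · rw [← Category.assoc, hg', h4]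
          · rw [← Category.assoc, hg', h5]
          · rw [← Category.assoc, hh', h6]
          · rw [← Category.assoc, hh', h7]
      obtain ⟨d, p, q, g, h, h1, h2, h3, h4, h5, h6, h7⟩ := key1
      by_cases hq : Mem k q
      · exact ih p q g h h1 hq h3 h4 h5 h6 h7
      · obtain ⟨P, π, hπ, hπp, ⟨g', hg'⟩, ⟨h', hh'⟩⟩ := js_step hk τ'.task h2 hq h5 h7 ht
        refine ih (π ≫ p) (π ≫ q) g' h' (mem_comp hπ h1) hπp ?_ ?_ ?_ ?_ ?_
        · rw [Category.assoc, h3, Category.assoc]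
        · rw [← Category.assoc, hg', h4]
        · rw [← Category.assoc, hg', h5]
        · rw [← Category.assoc, hh', h6]
        · rw [← Category.assoc, hh', h7]

/-- pullbacks of arbitrary maps -/
theorem pb_ex {x y b : D} (f : x ⟶ b) (g : y ⟶ b) :
    ∃ (z : D) (p : z ⟶ x) (q : z ⟶ y), IsPB p q f g := by
  obtain ⟨i₁, h₁⟩ := mem_ex f
  obtain ⟨i₂, h₂⟩ := mem_ex g
  obtain ⟨z, p, q, -, -, h⟩ :=
    pb (mem_mono (le_max_left i₁ i₂) h₁) (mem_mono (le_max_right i₁ i₂) h₂)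
  exact ⟨z, p, q, h⟩

/-- **Joint separation, different stages.** -/
theorem js_lt {j j' : Ordinal.{0}} (hjj : j < j') (τ : TaskOn j α) (τ' : TaskOn j' α)
    {w z : D} {e : τ.b ⟶ w} {e' : τ'.b ⟶ w} {s t : z ⟶ c} (hs : ¬ Thru s α) (ht : ¬ Thru t α)
    (hγ : τ.γ ≫ e = τ'.γ ≫ e') (hst : s ≫ gen τ.task ≫ e = t ≫ gen τ'.task ≫ e') : False := by
  obtain ⟨d, p, q, hpb⟩ := pb_ex e e'
  obtain ⟨K₁, hK₁⟩ := mem_ex p
  obtain ⟨K₂, hK₂⟩ := mem_ex q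
  obtain ⟨g, hg1, hg2⟩ := hpb.2 (s ≫ gen τ.task) (t ≫ gen τ'.task) (by simpa using hst)
  obtain ⟨h, hh1, hh2⟩ := hpb.2 τ.γ τ'.γ hγ
  obtain ⟨d, p, q, g, h, h1, h2, h3, h4, h5, h6, h7⟩ := js_reduce hjj.le τ τ' hs ht (max K₁ K₂)
    p q g h (mem_mono (le_max_left _ _) hK₁) (mem_mono (le_max_right _ _) hK₂)
    hpb.1 hg1 hg2 hh1 hh2
  rcases G4 τ'.task q h2 with ⟨d', A, u, hu, hA⟩ | h8
  · obtain ⟨f', hf1, hf2⟩ := gen_inv τ'.task hA
    obtain ⟨v', hv1, hv2⟩ := τ'.inv hA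
    have h9 : g = t ≫ f' ≫ u := by
      apply tw_cancel (h := q)
      simp only [Category.assoc]
      rw [h5, hf2]
    have h10 : v' ≫ u = h := by
      apply tw_cancel (h := q)
      rw [Category.assoc, hv2, h7]
    have h11 : t ≫ f' ≫ (u ≫ p) = s ≫ gen τ.task := by
      rw [← h4, h9]
      simp
    rcases G1 τ'.task A (τ'.E.left hA) f' v' hf1 hv1 (u ≫ p) (gen τ.task) (mem_comp hu h1)
      (mem_mono (Order.add_one_le_of_lt hjj) (gen_mem τ.task)) t s h11 with h12 | h12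
    · exact ht h12
    · rw [← Category.assoc, h10, h6] at h12
      exact gen_not_thru τ.task h12
  · exact ht (h8 g t h5)

/-- **Joint separation, same task.** -/
theorem js_same {j : Ordinal.{0}} (τ : Task D j) {w z : D} {e e' : τ.b ⟶ w}
    {s t : z ⟶ τ.c} (hs : ¬ Thru s τ.α) (ht : ¬ Thru t τ.α) (hγ : τ.γ ≫ e = τ.γ ≫ e')
    (hst : s ≫ gen τ ≫ e = t ≫ gen τ ≫ e') :
    s = t ∧ ∃ (d : D) (x y : d ⟶ τ.b), τ.E.rel x y ∧ x ≫ e = y ≫ e' := by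
  let τ₁ : TaskOn j τ.α := ⟨τ.b, τ.E, τ.γ, τ.hα, τ.hγ, τ.inv⟩
  obtain ⟨d, p, q, hpb⟩ := pb_ex e e'
  obtain ⟨K₁, hK₁⟩ := mem_ex p
  obtain ⟨K₂, hK₂⟩ := mem_ex q
  obtain ⟨g, hg1, hg2⟩ := hpb.2 (s ≫ gen τ) (t ≫ gen τ) (by simpa using hst)
  obtain ⟨h, hh1, hh2⟩ := hpb.2 τ.γ τ.γ hγ
  obtain ⟨d, p, q, g, h, h1, h2, h3, h4, h5, h6, h7⟩ := js_reduce le_rfl τ₁ τ₁ hs ht (max K₁ K₂)
    p q g h (mem_mono (le_max_left _ _) hK₁) (mem_mono (le_max_right _ _) hK₂)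
    hpb.1 hg1 hg2 hh1 hh2
  rcases G4 τ p h1 with ⟨d₁, A, u, hu, hA⟩ | h8
  swap
  · exact absurd (h8 g s h4) hs
  rcases G4 τ q h2 with ⟨d₂, A', u', hu', hA'⟩ | h8
  swap
  · exact absurd (h8 g t h5) ht
  obtain ⟨f₁, hf1, hf2⟩ := gen_inv τ hA
  obtain ⟨f₂, hf3, hf4⟩ := gen_inv τ hA'
  have h9 : g = s ≫ f₁ ≫ u := by
    apply tw_cancel (h := p)
    simp only [Category.assoc]
    rw [h4, hf2]
  have h10 : g = t ≫ f₂ ≫ u' := by
    apply tw_cancel (h := q)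
    simp only [Category.assoc]
    rw [h5, hf4]
  rcases G5 τ A A' (τ.E.left hA) (τ.E.left hA') f₁ f₂ hf1 hf3 u u' hu hu' s t
    (h9.symm.trans h10) with h11 | h11 | ⟨h11, d₃, x, y, hx, hy, hxy, hu3⟩
  · exact absurd h11 hs
  · exact absurd h11 ht
  refine ⟨h11, d₃, x ≫ u ≫ p, y ≫ u' ≫ q, ?_, ?_⟩
  · exact τ.E.trans (τ.E.symm (τ.E.restrict hA (τ.E.left hxy)))
      (τ.E.trans hxy (τ.E.restrict hA' (τ.E.right hxy)))
  · simp only [Category.assoc]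
    rw [h3, ← Category.assoc, hu3, Category.assoc]

/-- **Joint separation**: the stages agree (both tasks have the same `n`, `c`, `α`). -/
theorem js_stage {j j' : Ordinal.{0}} (τ : TaskOn j α) (τ' : TaskOn j' α)
    {w z : D} {e : τ.b ⟶ w} {e' : τ'.b ⟶ w} {s t : z ⟶ c} (hs : ¬ Thru s α) (ht : ¬ Thru t α)
    (hγ : τ.γ ≫ e = τ'.γ ≫ e') (hst : s ≫ gen τ.task ≫ e = t ≫ gen τ'.task ≫ e') :
    j = j' := by
  rcases lt_trichotomy j j' with h | h | h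
  · exact (js_lt h τ τ' hs ht hγ hst).elim
  · exact h
  · exact (js_lt h τ' τ ht hs hγ.symm hst.symm).elim

/-- **Joint separation**, bundled tasks with equal shapes. -/
theorem js_stage' {j j' : Ordinal.{0}} (τ : Task D j) (τ' : Task D j') (hn : τ.n = τ'.n)
    (hc : τ.c = τ'.c) (hα : HEq τ.α τ'.α) {w z : D} {e : τ.b ⟶ w} {e' : τ'.b ⟶ w}
    {s : z ⟶ τ.c} {t : z ⟶ τ'.c} (hs : ¬ Thru s τ.α) (ht : ¬ Thru t τ'.α)
    (hγ : HEq (τ.γ ≫ e) (τ'.γ ≫ e')) (hst : s ≫ gen τ ≫ e = t ≫ gen τ' ≫ e') :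
    j = j' := by
  obtain ⟨n, c, α, b, E, γ, hα1, hγ1, inv⟩ := τ
  obtain ⟨n', c', α', b', E', γ', hα1', hγ1', inv'⟩ := τ'
  obtain rfl : n = n' := hn
  obtain rfl : c = c' := hc
  obtain rfl : α = α' := eq_of_heq hα
  exact js_stage (n := n) (c := c) (α := α) ⟨b, E, γ, hα1, hγ1, inv⟩
    ⟨b', E', γ', hα1', hγ1', inv'⟩ hs ht (eq_of_heq hγ) hst

end Vale.Agent.P323.Z
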